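import Vale.Agent.P273.H863.RootInt
import Vale.Agent.P273.H863.RootPath

/-!
Row GP-ROOT: the structure of the primitive at a root.
-/

open Complex Set Filter Topology MeasureTheory
open scoped ContDiff

namespace Vale.Agent.P273.H863

open Vale.Agent.P273.H857

noncomputable section

/-- the integrand of `Er` -/
def Phi (k : ℕ) (j : Fin 6) (B : Finset (Fin 6)) (p : C6 × ℂ) : ℂ :=
  2 * (p.1 j + p.2) ^ k / sqj j B p.1 (p.1 j + p.2)

theorem Er_eq (k : ℕ) (j : Fin 6) (B : Finset (Fin 6)) (b : C6) (w : ℂ) :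
    Er k j B b w = ∫ r in (0 : ℝ)..1, Phi k j B (b, w * (r : ℂ) ^ 2) := rfl

theorem analyticAt_Phi (k : ℕ) {j : Fin 6} {B : Finset (Fin 6)} {b₀ : C6}
    (h : ∀ l, l ≠ j → b₀ j - b₀ l ∈ Sb B l) : AnalyticAt ℂ (Phi k j B) (b₀, 0) := by
  have hx : AnalyticAt ℂ (fun p : C6 × ℂ => p.1 j + p.2) (b₀, 0) :=
    ((ContinuousLinearMap.proj (R := ℂ) (φ := fun _ : Fin 6 => ℂ) j).comp
      (ContinuousLinearMap.fst ℂ C6 ℂ) + ContinuousLinearMap.snd ℂ C6 ℂ).analyticAt _
  have hs : AnalyticAt ℂ (fun p : C6 × ℂ => sqj j B p.1 (p.1 j + p.2)) (b₀, 0) := by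
    unfold sqj
    refine Finset.analyticAt_fun_prod _ fun l hl => ?_
    have hl' : l ≠ j := Finset.ne_of_mem_erase hl
    have h1 : AnalyticAt ℂ (fun p : C6 × ℂ => p.1 j + p.2 - p.1 l) (b₀, 0) :=
      hx.sub (((ContinuousLinearMap.proj (R := ℂ) (φ := fun _ : Fin 6 => ℂ) l).comp
        (ContinuousLinearMap.fst ℂ C6 ℂ)).analyticAt _)
    refine (analyticAt_br (B := B) (l := l) (z := b₀ j + 0 - b₀ l) ?_).comp_of_eq h1 rfl
    rw [add_zero]
    exact h l hl'
  have hne : sqj j B b₀ (b₀ j + 0) ≠ 0 := by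
    unfold sqj
    rw [Finset.prod_ne_zero_iff]
    intro l hl
    rw [add_zero]
    exact br_ne_zero (Sb_ne_zero (h l (Finset.ne_of_mem_erase hl)))
  unfold Phi
  exact (analyticAt_const.mul (hx.pow k)).div hs hne

theorem sqj_insert (j : Fin 6) (B : Finset (Fin 6)) (b : C6) (z : ℂ) :
    sqj j (insert j B) b z = sqj j B b z := by
  unfold sqj
  refine Finset.prod_congr rfl fun l hl => ?_
  have : l ∈ insert j B ↔ l ∈ B := by simp [Finset.ne_of_mem_erase hl]
  simp only [br, this]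

/-! ### the neighbourhood -/

/-- strict inequalities at `(b₀, b₀ j)` persist at `(b, b j + w)` -/
structure Near (b₀ : C6) (j : Fin 6) (b : C6) (w : ℂ) : Prop where
  re : ∀ l m, (b₀ l).re < (b₀ m).re → (b l).re < (b m).re
  im : ∀ l m, (b₀ l).im < (b₀ m).im → (b l).im < (b m).im
  re1 : ∀ l, (b₀ l).re < (b₀ j).re → (b l).re < (b j).re + w.re
  re2 : ∀ l, (b₀ j).re < (b₀ l).re → (b j).re + w.re < (b l).re
  im1 : ∀ l, (b₀ l).im < (b₀ j).im → (b l).im < (b j).im + w.im
  im2 : ∀ l, (b₀ j).im < (b₀ l).im → (b j).im + w.im < (b l).im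

theorem eventually_near (b₀ : C6) (j : Fin 6) :
    ∀ᶠ p : C6 × ℂ in 𝓝 (b₀, 0), Near b₀ j p.1 p.2 := by
  have key : ∀ (P : Prop) (f g : C6 × ℂ → ℝ), Continuous f → Continuous g →
      (P → f (b₀, 0) < g (b₀, 0)) → ∀ᶠ p : C6 × ℂ in 𝓝 (b₀, 0), P → f p < g p := by
    intro P f g hf hg h
    by_cases hP : P
    · filter_upwards [hf.continuousAt.eventually_lt hg.continuousAt (h hP)] with p hp _ using hp
    · exact Eventually.of_forall fun p h2 => absurd h2 hP
  have cre : ∀ l, Continuous fun p : C6 × ℂ => (p.1 l).re := fun l => by fun_prop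
  have cim : ∀ l, Continuous fun p : C6 × ℂ => (p.1 l).im := fun l => by fun_prop
  have wre : Continuous fun p : C6 × ℂ => (p.1 j).re + p.2.re := by fun_prop
  have wim : Continuous fun p : C6 × ℂ => (p.1 j).im + p.2.im := by fun_prop
  have a1 : ∀ᶠ p : C6 × ℂ in 𝓝 (b₀, 0), ∀ l m, (b₀ l).re < (b₀ m).re →
      (p.1 l).re < (p.1 m).re := by
    rw [eventually_all]; intro l; rw [eventually_all]; intro m
    exact key _ _ _ (cre l) (cre m) fun h => h
  have a2 : ∀ᶠ p : C6 × ℂ in 𝓝 (b₀, 0), ∀ l m, (b₀ l).im < (b₀ m).im →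
      (p.1 l).im < (p.1 m).im := by
    rw [eventually_all]; intro l; rw [eventually_all]; intro m
    exact key _ _ _ (cim l) (cim m) fun h => h
  have a3 : ∀ᶠ p : C6 × ℂ in 𝓝 (b₀, 0), ∀ l, (b₀ l).re < (b₀ j).re →
      (p.1 l).re < (p.1 j).re + p.2.re := by
    rw [eventually_all]; intro l
    exact key _ _ _ (cre l) wre fun h => by simpa using h
  have a4 : ∀ᶠ p : C6 × ℂ in 𝓝 (b₀, 0), ∀ l, (b₀ j).re < (b₀ l).re →
      (p.1 j).re + p.2.re < (p.1 l).re := by
    rw [eventually_all]; intro l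
    exact key _ _ _ wre (cre l) fun h => by simpa using h
  have a5 : ∀ᶠ p : C6 × ℂ in 𝓝 (b₀, 0), ∀ l, (b₀ l).im < (b₀ j).im →
      (p.1 l).im < (p.1 j).im + p.2.im := by
    rw [eventually_all]; intro l
    exact key _ _ _ (cim l) wim fun h => by simpa using h
  have a6 : ∀ᶠ p : C6 × ℂ in 𝓝 (b₀, 0), ∀ l, (b₀ j).im < (b₀ l).im →
      (p.1 j).im + p.2.im < (p.1 l).im := by
    rw [eventually_all]; intro l
    exact key _ _ _ wim (cim l) fun h => by simpa using h
  filter_upwards [a1, a2, a3, a4, a5, a6] with p b1 b2 b3 b4 b5 b6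
  exact ⟨b1, b2, b3, b4, b5, b6⟩

section

variable {B : Finset (Fin 6)} {b₀ : C6} {j : Fin 6} {b : C6} {w : ℂ}

theorem Near.inj (h : Near b₀ j b w) (hb : Function.Injective b₀) : Function.Injective b := by
  intro l m hlm
  by_contra hne
  have h1 : b₀ l ≠ b₀ m := fun h2 => hne (hb h2)
  have h2 : (b l).re = (b m).re := by rw [hlm]
  have h3 : (b l).im = (b m).im := by rw [hlm]
  rcases lt_trichotomy (b₀ l).re (b₀ m).re with h4 | h4 | h4
  · exact absurd (h.re _ _ h4) (by rw [h2]; exact lt_irrefl _)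
  · rcases lt_trichotomy (b₀ l).im (b₀ m).im with h5 | h5 | h5
    · exact absurd (h.im _ _ h5) (by rw [h3]; exact lt_irrefl _)
    · exact h1 (Complex.ext h4 h5)
    · exact absurd (h.im _ _ h5) (by rw [h3]; exact lt_irrefl _)
  · exact absurd (h.re _ _ h4) (by rw [h2]; exact lt_irrefl _)

theorem Near.ne (h : Near b₀ j b w) (hb : Function.Injective b₀) (hw : w ≠ 0) (l : Fin 6) :
    b l ≠ b j + w := by
  intro hl
  by_cases hlj : l = j
  · rw [hlj] at hl
    exact hw (by linear_combination -hl)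
  have h1 : b₀ l ≠ b₀ j := fun h2 => hlj (hb h2)
  have h2 : (b l).re = (b j).re + w.re := by rw [hl, add_re]
  have h3 : (b l).im = (b j).im + w.im := by rw [hl, add_im]
  rcases lt_trichotomy (b₀ l).re (b₀ j).re with h4 | h4 | h4
  · exact absurd (h.re1 _ h4) (by rw [h2]; exact lt_irrefl _)
  · rcases lt_trichotomy (b₀ l).im (b₀ j).im with h5 | h5 | h5
    · exact absurd (h.im1 _ h5) (by rw [h3]; exact lt_irrefl _)
    · exact h1 (Complex.ext h4 h5)
    · exact absurd (h.im2 _ h5) (by rw [h3]; exact lt_irrefl _)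
  · exact absurd (h.re2 _ h4) (by rw [h2]; exact lt_irrefl _)

/-- the first half of `OK`, labels in `B` -/
theorem Near.ok1 (h : Near b₀ j b w) (hb : Function.Injective b₀) (hok : OK B b₀ (b₀ j))
    {l m : Fin 6} (hl : l ∈ B) (hm : m ∉ B) (hj : j ∉ B) (e : (b l).re = (b m).re)
    (hx : (b j).re + w.re < (b l).re) : (b m).im < (b l).im := by
  have e0 : (b₀ l).re = (b₀ m).re := by
    rcases lt_trichotomy (b₀ l).re (b₀ m).re with h4 | h4 | h4
    · exact absurd (h.re _ _ h4) (by rw [e]; exact lt_irrefl _)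
    · exact h4
    · exact absurd (h.re _ _ h4) (by rw [e]; exact lt_irrefl _)
  rcases lt_trichotomy (b₀ j).re (b₀ l).re with h4 | h4 | h4
  · exact h.im _ _ (hok.1 l hl m hm e0 h4)
  · have hlj : b₀ l ≠ b₀ j := fun h2 => hj (by rw [← hb h2]; exact hl)
    have h5 := (hok.2 l hlj h4.symm).1 hl
    by_cases hmj : m = j
    · rw [hmj]; exact h.im _ _ h5
    · have hmj' : b₀ m ≠ b₀ j := fun h2 => hmj (hb h2)
      have h6 := (hok.2 m hmj' (by rw [← e0, ← h4])).2 hm
      exact h.im _ _ (h6.trans h5)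
  · exact absurd (h.re1 _ h4) (not_lt.2 hx.le)

/-- the second half of `OK` for labels different from `j` -/
theorem Near.ok2 (h : Near b₀ j b w) (hb : Function.Injective b₀) (hok : OK B b₀ (b₀ j))
    {l : Fin 6} (hlj : l ≠ j) (e : (b l).re = (b j).re + w.re) :
    (l ∈ B → (b j).im + w.im < (b l).im) ∧ (l ∉ B → (b l).im < (b j).im + w.im) := by
  have e0 : (b₀ l).re = (b₀ j).re := by
    rcases lt_trichotomy (b₀ l).re (b₀ j).re with h4 | h4 | h4
    · exact absurd (h.re1 _ h4) (by rw [e]; exact lt_irrefl _)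
    · exact h4
    · exact absurd (h.re2 _ h4) (by rw [e]; exact lt_irrefl _)
  have h1 := hok.2 l (fun h2 => hlj (hb h2)) e0
  exact ⟨fun h2 => h.im2 _ (h1.1 h2), fun h2 => h.im1 _ (h1.2 h2)⟩

theorem Near.ok (h : Near b₀ j b w) (hb : Function.Injective b₀) (hok : OK B b₀ (b₀ j))
    (hj : j ∉ B) (hw : w = 0 ∨ w ∈ Sl) : OK B b (b j + w) := by
  refine ⟨fun l hl m hm e hx => ?_, fun l hl e => ?_⟩
  · rw [add_re] at hx
    exact h.ok1 hb hok hl hm hj e hx
  · rw [add_re] at e
    rw [add_im]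
    by_cases hlj : l = j
    · subst hlj
      refine ⟨fun h2 => absurd h2 hj, fun _ => ?_⟩
      have h3 : w.re = 0 := by linarith
      rcases hw with h4 | h4
      · exact absurd (by rw [h4, add_zero]) hl
      · rcases h4 with h5 | h5
        · linarith
        · exact absurd h3 h5
    · exact h.ok2 hb hok hlj e

theorem Near.ok' (h : Near b₀ j b w) (hb : Function.Injective b₀) (hok : OK B b₀ (b₀ j))
    (hj : j ∉ B) (hw : w ∈ Su) : OK (insert j B) b (b j + w) := by
  refine ⟨fun l hl m hm e hx => ?_, fun l hl e => ?_⟩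
  · rw [add_re] at hx
    have hm1 : m ≠ j := fun h2 => hm (by rw [h2]; exact Finset.mem_insert_self _ _)
    have hm2 : m ∉ B := fun h2 => hm (Finset.mem_insert_of_mem h2)
    rcases Finset.mem_insert.1 hl with h1 | h1
    · subst h1
      have e0 : (b₀ m).re = (b₀ l).re := by
        rcases lt_trichotomy (b₀ m).re (b₀ l).re with h4 | h4 | h4
        · exact absurd (h.re _ _ h4) (by rw [e]; exact lt_irrefl _)
        · exact h4
        · exact absurd (h.re _ _ h4) (by rw [e]; exact lt_irrefl _)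
      exact h.im _ _ ((hok.2 m (fun h2 => hm1 (hb h2)) e0).2 hm2)
    · exact h.ok1 hb hok h1 hm2 hj e hx
  · rw [add_re] at e
    rw [add_im]
    by_cases hlj : l = j
    · subst hlj
      refine ⟨fun _ => ?_, fun h2 => absurd (Finset.mem_insert_self _ _) h2⟩
      have h3 : w.re = 0 := by linarith
      rcases hw with h5 | h5
      · linarith
      · exact absurd h3 h5
    · have h1 := h.ok2 hb hok hlj e
      refine ⟨fun h2 => h1.1 ((Finset.mem_insert.1 h2).resolve_left hlj), fun h2 => h1.2 ?_⟩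
      exact fun h3 => h2 (Finset.mem_insert_of_mem h3)

end

/-! ### slit discs -/

theorem slit_preconnected {S : Set ℂ} {v : ℂ} {ε : ℝ}
    (hst : ∀ z ∈ S, ∀ s : ℝ, 0 < s → s ≤ 1 → ((1 - s : ℝ) : ℂ) * v + (s : ℂ) * z ∈ S)
    (hv : v ∈ S) (hv2 : ‖v‖ < ε) : IsPreconnected (S ∩ Metric.ball 0 ε) := by
  have h : StarConvex ℝ v (S ∩ Metric.ball 0 ε) := by
    intro z hz a c ha hc hac
    refine ⟨?_, ?_⟩
    · rcases hc.eq_or_lt with h1 | h1
      · rw [← h1] at hac ⊢
        have : a = 1 := by linarith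
        rw [this]
        simpa using hv
      · have h2 := hst z hz.1 c h1 (by linarith)
        have e : a = 1 - c := by linarith
        rw [e, real_smul, real_smul]
        exact h2
    · exact (convex_ball (0 : ℂ) ε) (mem_ball_zero_iff.2 hv2) hz.2 ha hc hac
  exact (h.isPathConnected ⟨hv, mem_ball_zero_iff.2 hv2⟩).isConnected.isPreconnected

theorem slit_Sl {ε : ℝ} (hε : 0 < ε) : IsPreconnected (Sl ∩ Metric.ball 0 ε) := by
  refine slit_preconnected (v := (ε / 2 : ℝ) * I) ?_ ?_ ?_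
  · intro z hz s h0 h1
    rcases hz with h2 | h2
    · left
      simp
      nlinarith
    · by_cases h3 : z.re = 0
      · exact absurd h3 h2
      · right
        simp
        exact ⟨h0.ne', h3⟩
  · left; simp; exact hε
  · rw [norm_mul, norm_I, mul_one, norm_real, Real.norm_eq_abs, abs_of_pos (by positivity)]
    linarith

theorem slit_Su {ε : ℝ} (hε : 0 < ε) : IsPreconnected (Su ∩ Metric.ball 0 ε) := by
  refine slit_preconnected (v := (-(ε / 2) : ℝ) * I) ?_ ?_ ?_
  · intro z hz s h0 h1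
    rcases hz with h2 | h2
    · left
      simp
      nlinarith
    · right
      simp
      exact ⟨h0.ne', h2⟩
  · left; simp; exact hε
  · rw [norm_mul, norm_I, mul_one, norm_real, Real.norm_eq_abs, abs_neg,
      abs_of_pos (by positivity)]
    linarith

/-- two functions with the same derivative on a slit disc -/
theorem slit_const {S : Set ℂ} {ε : ℝ} (hS : IsOpen S)
    (hpre : IsPreconnected (S ∩ Metric.ball 0 ε)) (hpos : ∀ s : ℝ, 0 < s → (s : ℂ) ∈ S)
    (hε : 0 < ε) {F G : ℂ → ℂ} {F' : ℂ → ℂ}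
    (hF : ∀ w ∈ S ∩ Metric.ball 0 ε, HasDerivAt F (F' w) w)
    (hG : ∀ w ∈ S ∩ Metric.ball 0 ε, HasDerivAt G (F' w) w) {c : ℂ}
    (hc : Tendsto (fun s : ℝ => F s - G s) (𝓝[>] 0) (𝓝 c)) :
    ∀ w ∈ S ∩ Metric.ball 0 ε, F w = c + G w := by
  intro w hw
  have hopen : IsOpen (S ∩ Metric.ball 0 ε) := hS.inter Metric.isOpen_ball
  have hD : ∀ z ∈ S ∩ Metric.ball 0 ε, HasDerivAt (fun z => F z - G z) 0 z := fun z hz => by
    have := (hF z hz).sub (hG z hz)
    rw [sub_self] at this
    exact this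
  have hconst : ∀ z ∈ S ∩ Metric.ball 0 ε, F z - G z = F w - G w := fun z hz =>
    hopen.is_const_of_deriv_eq_zero hpre
      (fun y hy => (hD y hy).differentiableAt.differentiableWithinAt)
      (fun y hy => (hD y hy).deriv) hz hw
  have h1 : Tendsto (fun s : ℝ => F s - G s) (𝓝[>] 0) (𝓝 (F w - G w)) := by
    refine tendsto_const_nhds.congr' ?_
    filter_upwards [Ioo_mem_nhdsGT hε] with s hs
    refine (hconst _ ⟨hpos s hs.1, ?_⟩).symm
    rw [mem_ball_zero_iff, norm_real, Real.norm_eq_abs, abs_of_pos hs.1]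
    exact hs.2
  have h2 := tendsto_nhds_unique h1 hc
  linear_combination h2

/-- **row GP-ROOT** -/
theorem stmROOT_of (hEX : StmEX) (hINV : StmINV) (hHOL : StmHOL) : StmROOT := by
  intro k B b₀ j hk hb hok hj
  have hmem : ∀ l, l ≠ j → b₀ j - b₀ l ∈ Sb B l := by
    intro l hlj
    rw [mem_Sb_iff]
    intro h0
    rw [sub_re] at h0
    have h1 := hok.2 l (fun h2 => hlj (hb h2)) (by linarith)
    rw [sub_im]
    exact ⟨fun h2 => by linarith [h1.1 h2], fun h2 => by linarith [h1.2 h2]⟩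
  have hΦ := analyticAt_Phi k hmem
  -- a ball on which everything holds
  have hbd : ∀ᶠ p in 𝓝 (b₀, (0 : ℂ)), ‖Phi k j B p‖ ≤ ‖Phi k j B (b₀, 0)‖ + 1 := by
    have := hΦ.continuousAt.norm.eventually_lt_const (lt_add_one _)
    filter_upwards [this] with p hp using hp.le
  obtain ⟨ε, hε, hall⟩ := Metric.eventually_nhds_iff_ball.1
    ((hΦ.eventually_analyticAt.and hbd).and (eventually_near b₀ j))
  set M := ‖Phi k j B (b₀, 0)‖ + 1 with hM
  have hd : DifferentiableOn ℂ (Phi k j B) (Metric.ball (b₀, 0) ε) := fun p hp =>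
    (hall p hp).1.1.differentiableAt.differentiableWithinAt
  have hE : DifferentiableOn ℂ (fun p : C6 × ℂ => Er k j B p.1 p.2) (Metric.ball (b₀, 0) ε) :=
    diffOn_scale hd fun p hp => (hall p hp).1.2
  refine ⟨P268.analyticAt_of_differentiableOn Metric.isOpen_ball hE (Metric.mem_ball_self hε), ?_⟩
  filter_upwards [Metric.ball_mem_nhds (b₀, (0 : ℂ)) hε] with p hp
  obtain ⟨b, w⟩ := p
  rw [← ball_prod_same] at hp
  have hb1 : b ∈ Metric.ball b₀ ε := hp.1
  have hw1 : w ∈ Metric.ball (0 : ℂ) ε := hp.2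
  have hin : ∀ {u : ℂ}, u ∈ Metric.ball (0 : ℂ) ε →
      ((b, u) : C6 × ℂ) ∈ Metric.ball (b₀, (0 : ℂ)) ε := by
    intro u hu
    rw [← ball_prod_same]
    exact ⟨hb1, hu⟩
  have hnear : ∀ {u : ℂ}, u ∈ Metric.ball (0 : ℂ) ε → Near b₀ j b u := fun hu =>
    (hall _ (hin hu)).2
  have h0 : (0 : ℂ) ∈ Metric.ball (0 : ℂ) ε := Metric.mem_ball_self hε
  have hinj : Function.Injective b := (hnear h0).inj hb
  have hok0 : OK B b (b j) := by
    have := (hnear h0).ok hb hok hj (Or.inl rfl)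
    rwa [add_zero] at this
  -- the function of one variable
  have hφ : DifferentiableOn ℂ (fun u => Phi k j B (b, u)) (Metric.ball 0 ε) := by
    refine hd.comp (by fun_prop) ?_
    intro u hu
    exact hin hu
  have hφM : ∀ u ∈ Metric.ball (0 : ℂ) ε, ‖Phi k j B (b, u)‖ ≤ M := fun u hu =>
    (hall _ (hin hu)).1.2
  -- `Er` is continuous at `0`
  have hEc : Tendsto (fun s : ℝ => Er k j B b s) (𝓝[>] 0) (𝓝 (Er k j B b 0)) := by
    have h1 : ContinuousAt (fun u : ℂ => Er k j B b u) 0 := by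
      have h2 : DifferentiableOn ℂ (fun u : ℂ => Er k j B b u) (Metric.ball 0 ε) := by
        refine hE.comp (g := fun p : C6 × ℂ => Er k j B p.1 p.2)
          (f := fun u : ℂ => ((b, u) : C6 × ℂ)) (by fun_prop) ?_
        intro u hu
        exact hin hu
      exact (h2.differentiableAt (Metric.ball_mem_nhds 0 hε)).continuousAt
    have h3 : Tendsto (fun s : ℝ => (s : ℂ)) (𝓝[>] 0) (𝓝 (0 : ℂ)) := by
      have : Tendsto (fun s : ℝ => (s : ℂ)) (𝓝 0) (𝓝 ((0 : ℝ) : ℂ)) :=
        Complex.continuous_ofReal.tendsto 0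
      rw [ofReal_zero] at this
      exact this.mono_left nhdsWithin_le_nhds
    exact h1.tendsto.comp h3
  have hrt : Tendsto (fun s : ℝ => rt s) (𝓝[>] 0) (𝓝 0) := by
    rw [tendsto_zero_iff_norm_tendsto_zero]
    simp only [norm_rt]
    have : Tendsto (fun s : ℝ => Real.sqrt ‖(s : ℂ)‖) (𝓝 0) (𝓝 (Real.sqrt ‖((0 : ℝ) : ℂ)‖)) :=
      (Real.continuous_sqrt.comp (continuous_norm.comp Complex.continuous_ofReal)).tendsto 0
    rw [ofReal_zero, norm_zero, Real.sqrt_zero] at this
    exact this.mono_left nhdsWithin_le_nhds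
  have hlim : Tendsto (fun s : ℝ => P k B b (b j + s) - rt s * Er k j B b s) (𝓝[>] 0)
      (𝓝 (P k B b (b j))) := by
    have := (tendsto_P_right hEX hINV hk hinj hok0).sub (hrt.mul hEc)
    rwa [zero_mul, sub_zero] at this
  have hSpos : ∀ s : ℝ, 0 < s → (s : ℂ) ∈ Sl := fun s hs => Or.inr (by simpa using hs.ne')
  have hUpos : ∀ s : ℝ, 0 < s → (s : ℂ) ∈ Su := fun s hs => Or.inr (by simpa using hs.ne')
  -- derivative of the primitive
  have hPd : ∀ (B' : Finset (Fin 6)) (u : ℂ), u ≠ 0 → u ∈ Metric.ball (0 : ℂ) ε →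
      OK B' b (b j + u) → HasDerivAt (fun u => P k B' b (b j + u))
        ((b j + u) ^ k / (br B' j u * sqj j B' b (b j + u))) u := by
    intro B' u hu0 hu hB'
    have h1 := (hHOL k B' b (b j + u) hk hinj ((hnear hu).ne hb hu0) hB').2
    have h2 : HasDerivAt (fun u : ℂ => b j + u) 1 u := (hasDerivAt_id u).const_add (b j)
    have h3 := HasDerivAt.comp (h₂ := P k B' b) u h1 h2
    rw [mul_one, sq_eq j, add_sub_cancel_left] at h3
    exact h3
  have hfin : ∀ {σ u s : ℂ}, σ ≠ 0 → 2 * u / s / (2 * σ) = u / (σ * s) := by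
    intro σ u s hσ
    rcases eq_or_ne s 0 with h | h
    · simp [h]
    · field_simp
  constructor
  · intro hwS
    refine slit_const (F := fun u => P k B b (b j + u))
      (G := fun u => rt u * Er k j B b u)
      (F' := fun u => (b j + u) ^ k / (rt u * sqj j B b (b j + u)))
      isOpen_Sl (slit_Sl hε) hSpos hε ?_ ?_ hlim w ⟨hwS, hw1⟩
    · intro u hu
      have h1 := hPd B u (ne_zero_of_mem hu.1) hu.2 ((hnear hu.2).ok hb hok hj (Or.inr hu.1))
      rw [show br B j u = rt u by simp [br, hj]] at h1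
      exact h1
    · intro u hu
      have hu0 := rt_ne_zero (ne_zero_of_mem hu.1)
      have h1 := hasDerivAt_root hφ hφM hu.2 (hasDerivAt_rt hu.1) (rt_mul_self u) hu0
      refine h1.congr_deriv ?_
      exact hfin hu0
  · intro hwS
    refine slit_const (F := fun u => P k (insert j B) b (b j + u))
      (G := fun u => ru u * Er k j B b u)
      (F' := fun u => (b j + u) ^ k / (ru u * sqj j B b (b j + u)))
      isOpen_Su (slit_Su hε) hUpos hε ?_ ?_ ?_ w ⟨hwS, hw1⟩
    · intro u hu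
      have h1 := hPd (insert j B) u (ne_zero_of_mem_Su hu.1) hu.2
        ((hnear hu.2).ok' hb hok hj hu.1)
      rw [show br (insert j B) j u = ru u by simp [br], sqj_insert] at h1
      exact h1
    · intro u hu
      have hu0 := ru_ne_zero (ne_zero_of_mem_Su hu.1)
      have h1 := hasDerivAt_root hφ hφM hu.2 (hasDerivAt_ru hu.1) (ru_mul_self u) hu0
      refine h1.congr_deriv ?_
      exact hfin hu0
    · refine hlim.congr' ?_
      filter_upwards [Ioo_mem_nhdsGT hε] with s hs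
      have hsb : (s : ℂ) ∈ Metric.ball (0 : ℂ) ε := by
        rw [mem_ball_zero_iff, norm_real, Real.norm_eq_abs, abs_of_pos hs.1]
        exact hs.2
      have h1 : rt (s : ℂ) = ru (s : ℂ) := rt_eq_ru (by simpa using hs.1)
      have h2 := P_insert_right hEX hINV (m := j) hk hinj hj
        ((hnear hsb).ok hb hok hj (Or.inr (hSpos s hs.1))) (by
          rw [add_re, ofReal_re]; linarith [hs.1])
      show P k B b (b j + s) - rt s * Er k j B b s =
        P k (insert j B) b (b j + s) - ru s * Er k j B b s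
      rw [h1, h2]

end

end Vale.Agent.P273.H863
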