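import Vale.Agent.P273.H857.Stm
import Vale.Agent.P273.H857.HolInt

/-!
Row GP-ROOT, part 1: the integral `∫ r in 0..1, Φ (b, w r²)` of a holomorphic function.
-/

open Complex Set Filter Topology MeasureTheory

namespace Vale.Agent.P273.H863

noncomputable section

section Abs

variable {E : Type*} [NormedAddCommGroup E] [NormedSpace ℂ E]

theorem norm_mul_sq_lt {w : ℂ} {ε : ℝ} (hw : ‖w‖ < ε) {r : ℝ} (h0 : 0 ≤ r) (h1 : r ≤ 1) :
    ‖w * (r : ℂ) ^ 2‖ < ε := by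
  refine lt_of_le_of_lt ?_ hw
  rw [norm_mul, norm_pow, norm_real, Real.norm_eq_abs, abs_of_nonneg h0]
  have : r ^ 2 ≤ 1 := pow_le_one₀ h0 h1
  nlinarith [norm_nonneg w]

omit [NormedSpace ℂ E] in
theorem mem_ball_scale {b₀ : E} {ε : ℝ} {p : E × ℂ} (hp : p ∈ Metric.ball (b₀, (0 : ℂ)) ε)
    {r : ℝ} (h0 : 0 ≤ r) (h1 : r ≤ 1) :
    ((p.1, p.2 * (r : ℂ) ^ 2) : E × ℂ) ∈ Metric.ball (b₀, (0 : ℂ)) ε := by
  rw [← ball_prod_same] at hp ⊢
  refine ⟨hp.1, ?_⟩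
  have h2 := hp.2
  rw [mem_ball_zero_iff] at h2 ⊢
  exact norm_mul_sq_lt h2 h0 h1

theorem diffOn_scale [FiniteDimensional ℂ E] {Φ : E × ℂ → ℂ} {b₀ : E} {ε M : ℝ}
    (hΦ : DifferentiableOn ℂ Φ (Metric.ball (b₀, 0) ε))
    (hM : ∀ p ∈ Metric.ball (b₀, (0 : ℂ)) ε, ‖Φ p‖ ≤ M) :
    DifferentiableOn ℂ (fun p : E × ℂ => ∫ r in (0 : ℝ)..1, Φ (p.1, p.2 * (r : ℂ) ^ 2))
      (Metric.ball (b₀, 0) ε) := by
  simp only [intervalIntegral.integral_of_le zero_le_one]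
  have hmem : ∀ᵐ r ∂(volume.restrict (Ioc (0 : ℝ) 1)), r ∈ Ioc (0 : ℝ) 1 :=
    ae_restrict_mem measurableSet_Ioc
  refine H857.differentiableOn_integral_hol (μ := volume.restrict (Ioc (0 : ℝ) 1))
    (G := fun (p : E × ℂ) (r : ℝ) => Φ (p.1, p.2 * (r : ℂ) ^ 2)) Metric.isOpen_ball ?_ ?_ ?_
  · intro p hp
    have hc : ContinuousOn (fun r : ℝ => Φ (p.1, p.2 * (r : ℂ) ^ 2)) (Ioc (0 : ℝ) 1) := by
      refine hΦ.continuousOn.comp (by fun_prop) ?_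
      intro r hr
      exact mem_ball_scale hp hr.1.le hr.2
    exact hc.aestronglyMeasurable measurableSet_Ioc
  · filter_upwards [hmem] with r hr
    refine hΦ.comp ?_ ?_
    · fun_prop
    · intro p hp
      exact mem_ball_scale hp hr.1.le hr.2
  · intro p hp
    obtain ⟨s, hs, hsub⟩ := Metric.isOpen_iff.1 Metric.isOpen_ball p hp
    refine ⟨s, hs, hsub, fun _ => M, integrable_const _, ?_⟩
    filter_upwards [hmem] with r hr q hq
    exact hM _ (mem_ball_scale (hsub hq) hr.1.le hr.2)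

end Abs

/-- the derivative in the second variable -/
theorem hasDerivAt_scale {φ : ℂ → ℂ} {ε M : ℝ} (hφ : DifferentiableOn ℂ φ (Metric.ball 0 ε))
    (hM : ∀ u ∈ Metric.ball (0 : ℂ) ε, ‖φ u‖ ≤ M) {w : ℂ} (hw : w ∈ Metric.ball (0 : ℂ) ε) :
    ∃ d : ℂ, HasDerivAt (fun w => ∫ r in (0 : ℝ)..1, φ (w * (r : ℂ) ^ 2)) d w ∧
      (∫ r in (0 : ℝ)..1, φ (w * (r : ℂ) ^ 2)) + 2 * w * d = φ w := by
  have hsc : ∀ {q : ℂ}, q ∈ Metric.ball (0 : ℂ) ε → ∀ {r : ℝ}, 0 ≤ r → r ≤ 1 →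
      q * (r : ℂ) ^ 2 ∈ Metric.ball (0 : ℂ) ε := by
    intro q hq r h0 h1
    rw [mem_ball_zero_iff] at hq ⊢
    exact norm_mul_sq_lt hq h0 h1
  have hmem : ∀ᵐ r ∂(volume.restrict (Ioc (0 : ℝ) 1)), r ∈ Ioc (0 : ℝ) 1 :=
    ae_restrict_mem measurableSet_Ioc
  obtain ⟨s, hs, hsub⟩ := Metric.isOpen_iff.1 Metric.isOpen_ball w hw
  have g1 : ∀ q ∈ Metric.ball (0 : ℂ) ε, AEStronglyMeasurable
      ((fun (q : ℂ) (r : ℝ) => φ (q * (r : ℂ) ^ 2)) q) (volume.restrict (Ioc (0 : ℝ) 1)) := by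
    intro q hq
    have hc : ContinuousOn (fun r : ℝ => φ (q * (r : ℂ) ^ 2)) (Ioc (0 : ℝ) 1) := by
      refine hφ.continuousOn.comp (by fun_prop) ?_
      intro r hr
      exact hsc hq hr.1.le hr.2
    exact hc.aestronglyMeasurable measurableSet_Ioc
  have g2 : ∀ᵐ (r : ℝ) ∂(volume.restrict (Ioc (0 : ℝ) 1)), DifferentiableOn ℂ
      (fun q : ℂ => φ (q * (r : ℂ) ^ 2)) (Metric.ball (0 : ℂ) ε) := by
    filter_upwards [hmem] with r hr
    refine hφ.comp ?_ ?_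
    · fun_prop
    · intro q hq
      exact hsc hq hr.1.le hr.2
  have g3 : ∀ᵐ (r : ℝ) ∂(volume.restrict (Ioc (0 : ℝ) 1)), ∀ q ∈ Metric.ball w s,
      ‖φ (q * (r : ℂ) ^ 2)‖ ≤ M := by
    filter_upwards [hmem] with r hr q hq
    exact hM _ (hsc (hsub hq) hr.1.le hr.2)
  obtain ⟨hi, hd⟩ := H857.hasFDerivAt_integral_hol (μ := volume.restrict (Ioc (0 : ℝ) 1))
    (G := fun (q : ℂ) (r : ℝ) => φ (q * (r : ℂ) ^ 2)) (U := Metric.ball (0 : ℂ) ε)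
    Metric.isOpen_ball g1 g2 hs hsub (g := fun _ => M) (integrable_const _) g3
  have hd1 := hd.hasDerivAt
  -- the derivative of the integrand
  have hder : ∀ r ∈ Ioc (0 : ℝ) 1, (fderiv ℂ (fun q : ℂ => φ (q * (r : ℂ) ^ 2)) w) 1 =
      deriv φ (w * (r : ℂ) ^ 2) * (r : ℂ) ^ 2 := by
    intro r hr
    have h1 : HasDerivAt φ (deriv φ (w * (r : ℂ) ^ 2)) (w * (r : ℂ) ^ 2) :=
      (hφ.differentiableAt (Metric.isOpen_ball.mem_nhds (hsc hw hr.1.le hr.2))).hasDerivAt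
    have h2 : HasDerivAt (fun q : ℂ => q * (r : ℂ) ^ 2) ((r : ℂ) ^ 2) w := by
      simpa using (hasDerivAt_id w).mul_const ((r : ℂ) ^ 2)
    have h3 : HasDerivAt (fun q : ℂ => φ (q * (r : ℂ) ^ 2))
        (deriv φ (w * (r : ℂ) ^ 2) * (r : ℂ) ^ 2) w := h1.comp w h2
    rw [h3.hasFDerivAt.fderiv]
    simp
  have hval : (∫ r in Ioc (0 : ℝ) 1, fderiv ℂ (fun q : ℂ => φ (q * (r : ℂ) ^ 2)) w) 1 =
      ∫ r in (0 : ℝ)..1, deriv φ (w * (r : ℂ) ^ 2) * (r : ℂ) ^ 2 := by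
    rw [ContinuousLinearMap.integral_apply hi, intervalIntegral.integral_of_le zero_le_one]
    exact setIntegral_congr_fun measurableSet_Ioc hder
  rw [hval] at hd1
  refine ⟨∫ r in (0 : ℝ)..1, deriv φ (w * (r : ℂ) ^ 2) * (r : ℂ) ^ 2, ?_, ?_⟩
  · have e : (fun w => ∫ r in (0 : ℝ)..1, φ (w * (r : ℂ) ^ 2)) =
        fun w => ∫ r in Ioc (0 : ℝ) 1, φ (w * (r : ℂ) ^ 2) := by
      funext w
      rw [intervalIntegral.integral_of_le zero_le_one]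
    rw [e]
    exact hd1
  · -- integration by parts
    have hcφ : ContinuousOn (fun r : ℝ => φ (w * (r : ℂ) ^ 2)) (uIcc (0 : ℝ) 1) := by
      rw [uIcc_of_le zero_le_one]
      refine hφ.continuousOn.comp (by fun_prop) ?_
      intro r hr
      exact hsc hw hr.1 hr.2
    have hcd : ContinuousOn (fun r : ℝ => deriv φ (w * (r : ℂ) ^ 2) * (r : ℂ) ^ 2)
        (uIcc (0 : ℝ) 1) := by
      rw [uIcc_of_le zero_le_one]
      refine ContinuousOn.mul ?_ (by fun_prop)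
      refine (hφ.deriv Metric.isOpen_ball).continuousOn.comp (by fun_prop) ?_
      intro r hr
      exact hsc hw hr.1 hr.2
    have hcd2 : ContinuousOn (fun r : ℝ => 2 * w * (deriv φ (w * (r : ℂ) ^ 2) * (r : ℂ) ^ 2))
        (uIcc (0 : ℝ) 1) := continuousOn_const.mul hcd
    have hI := intervalIntegral.integral_eq_sub_of_hasDerivAt (a := (0 : ℝ)) (b := 1)
      (f := fun r : ℝ => (r : ℂ) * φ (w * (r : ℂ) ^ 2))
      (f' := fun r : ℝ => φ (w * (r : ℂ) ^ 2) +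
        2 * w * (deriv φ (w * (r : ℂ) ^ 2) * (r : ℂ) ^ 2)) ?_ ?_
    · rw [intervalIntegral.integral_add hcφ.intervalIntegrable hcd2.intervalIntegrable,
        intervalIntegral.integral_const_mul] at hI
      rw [hI]
      simp
    · intro r hr
      rw [uIcc_of_le zero_le_one] at hr
      have h1 : HasDerivAt φ (deriv φ (w * (r : ℂ) ^ 2)) (w * (r : ℂ) ^ 2) :=
        (hφ.differentiableAt (Metric.isOpen_ball.mem_nhds (hsc hw hr.1 hr.2))).hasDerivAt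
      have h2 : HasDerivAt (fun r : ℝ => (r : ℂ)) 1 r := (hasDerivAt_id r).ofReal_comp
      have h3 : HasDerivAt (fun r : ℝ => w * (r : ℂ) ^ 2) (w * (2 * (r : ℂ))) r := by
        have := (h2.pow 2).const_mul w
        simpa using this
      have h4 : HasDerivAt (fun r : ℝ => φ (w * (r : ℂ) ^ 2))
          (deriv φ (w * (r : ℂ) ^ 2) * (w * (2 * (r : ℂ)))) r := by
        exact h1.comp_of_eq r h3 rfl
      have h5 := h2.mul h4
      refine h5.congr_deriv ?_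
      ring
    · exact (hcφ.add hcd2).intervalIntegrable

/-- the derivative of `σ w * ∫ r in 0..1, φ (w r²)` for a square root `σ` -/
theorem hasDerivAt_root {φ : ℂ → ℂ} {ε M : ℝ} (hφ : DifferentiableOn ℂ φ (Metric.ball 0 ε))
    (hM : ∀ u ∈ Metric.ball (0 : ℂ) ε, ‖φ u‖ ≤ M) {w : ℂ} (hw : w ∈ Metric.ball (0 : ℂ) ε)
    {σ : ℂ → ℂ} (hσ : HasDerivAt σ (1 / (2 * σ w)) w) (hσ2 : σ w * σ w = w) (h0 : σ w ≠ 0) :
    HasDerivAt (fun w => σ w * ∫ r in (0 : ℝ)..1, φ (w * (r : ℂ) ^ 2)) (φ w / (2 * σ w)) w := by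
  obtain ⟨d, hd, he⟩ := hasDerivAt_scale hφ hM hw
  refine (hσ.mul hd).congr_deriv ?_
  rw [← he]
  field_simp
  linear_combination (2 * d) * hσ2

end

end Vale.Agent.P273.H863
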